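import Mathlib

/-!
# Derivations into the rational regular representation of a finite quotient

Let `θ : Γ →* Q` be a homomorphism to a finite group.  A homomorphism `Ψ : Γ →* (V ≃ᵃ V)` into
the affine group of `V = (Q → ℚ)` whose linear part is the right translation action of `θ g`
is the same as a derivation `δ g = Ψ g 0`.  This file develops what is needed for the
Euler-characteristic criterion of `P192`.
-/

namespace Vale.Agent.H52.Deriv

open Module

universe u

variable {Q : Type u} [Group Q]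

/-- Right translation action of `Q` on rational functions on `Q`. -/
noncomputable def rho (q : Q) : (Q → ℚ) ≃ₗ[ℚ] (Q → ℚ) :=
  LinearEquiv.funCongrLeft ℚ ℚ (Equiv.mulRight q)

theorem rho_apply (q : Q) (f : Q → ℚ) (x : Q) : rho q f x = f (x * q) := rfl

theorem rho_mul (q₁ q₂ : Q) : rho (q₁ * q₂) = rho q₁ * rho q₂ := by
  ext f x
  simp [rho_apply, mul_assoc]

theorem rho_one : rho (1 : Q) = 1 := by
  ext f x
  simp [rho_apply]

/-- `rho` as a monoid homomorphism. -/
noncomputable def rhoHom : Q →* ((Q → ℚ) ≃ₗ[ℚ] (Q → ℚ)) where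
  toFun := rho
  map_one' := rho_one
  map_mul' := rho_mul

theorem rhoHom_apply (q : Q) : rhoHom q = rho q := rfl

/-- The affine map `v ↦ rho q v + c`. -/
noncomputable def aff (q : Q) (c : Q → ℚ) : (Q → ℚ) ≃ᵃ[ℚ] (Q → ℚ) :=
  AffineEquiv.constVAdd ℚ (Q → ℚ) c * (rho q).toAffineEquiv

theorem aff_apply (q : Q) (c v : Q → ℚ) : aff q c v = c + rho q v := rfl

theorem aff_linear (q : Q) (c : Q → ℚ) : (aff q c).linear = rho q := by
  apply LinearEquiv.ext
  intro v
  have h := (aff q c).map_vadd (0 : Q → ℚ) v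
  rw [aff_apply, aff_apply, map_zero, add_zero] at h
  have h' : c + rho q (v + 0) = (aff q c).linear v + c := h
  rw [add_zero, add_comm] at h'
  exact (add_right_cancel h').symm

section Abstract

variable {Γ : Type*} [Group Γ] (θ : Γ →* Q) (Ψ : Γ →* ((Q → ℚ) ≃ᵃ[ℚ] (Q → ℚ)))

theorem psi_apply (hlin : ∀ g, (Ψ g).linear = rho (θ g)) (g : Γ) (v : Q → ℚ) :
    Ψ g v = rho (θ g) v + Ψ g 0 := by
  have h := (Ψ g).map_vadd (0 : Q → ℚ) v
  rw [hlin] at h
  simpa using h

theorem delta_mul (hlin : ∀ g, (Ψ g).linear = rho (θ g)) (g h : Γ) :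
    Ψ (g * h) 0 = Ψ g 0 + rho (θ g) (Ψ h 0) := by
  rw [map_mul, AffineEquiv.coe_mul, Function.comp_apply, psi_apply θ Ψ hlin g (Ψ h 0), add_comm]

omit [Group Q] in
theorem delta_one : Ψ 1 0 = 0 := by
  rw [map_one]
  rfl

theorem delta_pow_of_ker (hlin : ∀ g, (Ψ g).linear = rho (θ g)) (k : Γ) (hk : θ k = 1) (j : ℕ) :
    Ψ (k ^ j) 0 = j • Ψ k 0 := by
  induction j with
  | zero => rw [pow_zero, zero_smul]; exact delta_one Ψ
  | succ j ih =>
    rw [pow_succ, delta_mul θ Ψ hlin, ih, map_pow, hk, one_pow, rho_one, succ_nsmul]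
    rfl

/-- The value of the derivation on `w ^ e` is fixed by `rho (θ w)` when `θ w ^ e = 1`. -/
theorem rho_delta_pow (hlin : ∀ g, (Ψ g).linear = rho (θ g)) (w : Γ) (e : ℕ)
    (he : θ w ^ e = 1) : rho (θ w) (Ψ (w ^ e) 0) = Ψ (w ^ e) 0 := by
  have h1 : Ψ (w * w ^ e) 0 = Ψ (w ^ e * w) 0 := by rw [← pow_succ, ← pow_succ']
  rw [delta_mul θ Ψ hlin, delta_mul θ Ψ hlin, map_pow θ w e, he, rho_one] at h1
  have h2 : Ψ w 0 + rho (θ w) (Ψ (w ^ e) 0) = Ψ (w ^ e) 0 + Ψ w 0 := h1
  have h3 := add_left_cancel (a := Ψ w 0) (h2.trans (add_comm _ _))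
  exact h3

end Abstract

section Free

variable {n : ℕ} (θ : FreeGroup (Fin n) →* Q)

/-- The affine representation of the free group attached to `c`. -/
noncomputable def Phi (c : Fin n → Q → ℚ) :
    FreeGroup (Fin n) →* ((Q → ℚ) ≃ᵃ[ℚ] (Q → ℚ)) :=
  FreeGroup.lift fun j => aff (θ (FreeGroup.of j)) (c j)

theorem Phi_linear (c : Fin n → Q → ℚ) (g : FreeGroup (Fin n)) :
    (Phi θ c g).linear = rho (θ g) := by
  have h : (AffineEquiv.linearHom).comp (Phi θ c) = rhoHom.comp θ := by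
    apply FreeGroup.ext_hom
    intro j
    show (Phi θ c (FreeGroup.of j)).linear = rho (θ (FreeGroup.of j))
    rw [Phi, FreeGroup.lift_apply_of, aff_linear]
  exact DFunLike.congr_fun h g

theorem Phi_of (c : Fin n → Q → ℚ) (j : Fin n) : Phi θ c (FreeGroup.of j) 0 = c j := by
  rw [Phi, FreeGroup.lift_apply_of, aff_apply, map_zero, add_zero]

/-- The derivation attached to `c`, evaluated at a fixed element, is linear in `c`. -/
theorem exists_linear (g : FreeGroup (Fin n)) :
    ∃ ℓ : (Fin n → Q → ℚ) →ₗ[ℚ] (Q → ℚ), ∀ c, Phi θ c g 0 = ℓ c := by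
  induction g using FreeGroup.induction_on with
  | C1 => exact ⟨0, fun c => by rw [delta_one]; rfl⟩
  | of j => exact ⟨LinearMap.proj j, fun c => Phi_of θ c j⟩
  | inv_of j ih =>
    obtain ⟨ℓ, hℓ⟩ := ih
    refine ⟨-((rho (θ (FreeGroup.of j)⁻¹)).toLinearMap ∘ₗ ℓ), fun c => ?_⟩
    have h := delta_mul θ (Phi θ c) (Phi_linear θ c) (FreeGroup.of j)⁻¹ (FreeGroup.of j)
    rw [inv_mul_cancel, delta_one, hℓ] at h
    rw [LinearMap.neg_apply, LinearMap.comp_apply]
    exact eq_neg_of_add_eq_zero_left h.symm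
  | mul g h ihg ihh =>
    obtain ⟨ℓ₁, h₁⟩ := ihg
    obtain ⟨ℓ₂, h₂⟩ := ihh
    refine ⟨ℓ₁ + (rho (θ g)).toLinearMap ∘ₗ ℓ₂, fun c => ?_⟩
    rw [delta_mul θ (Phi θ c) (Phi_linear θ c), h₁, h₂]
    rfl

end Free

section Fix

/-- Functions invariant under right translation by `q`. -/
def fixSub (q : Q) : Submodule ℚ (Q → ℚ) where
  carrier := {f | ∀ x, f (x * q) = f x}
  add_mem' := by
    intro f g hf hg x
    show f (x * q) + g (x * q) = f x + g x
    rw [hf x, hg x]
  zero_mem' := fun _ => rfl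
  smul_mem' := by
    intro a f hf x
    show a • f (x * q) = a • f x
    rw [hf x]

theorem mem_fixSub (q : Q) (f : Q → ℚ) : f ∈ fixSub q ↔ ∀ x, f (x * q) = f x := Iff.rfl

theorem mem_fixSub_of_rho (q : Q) (f : Q → ℚ) (h : rho q f = f) : f ∈ fixSub q := by
  intro x
  have := congrFun h x
  rwa [rho_apply] at this

/-- An invariant function is invariant under the whole cyclic subgroup. -/
theorem fixSub_zpowers (q : Q) (f : Q → ℚ) (hf : f ∈ fixSub q) :
    ∀ h ∈ Subgroup.zpowers q, ∀ x, f (x * h) = f x := by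
  let S : Subgroup Q :=
    { carrier := {h | ∀ x, f (x * h) = f x}
      one_mem' := fun x => by rw [mul_one]
      mul_mem' := by
        intro a b ha hb x
        rw [← mul_assoc, hb, ha]
      inv_mem' := by
        intro a ha x
        have := ha (x * a⁻¹)
        rw [inv_mul_cancel_right] at this
        exact this.symm }
  have hq : q ∈ S := hf
  intro h hh
  exact (Subgroup.zpowers_le.mpr hq) hh

theorem finrank_fixSub_mul_le [Finite Q] (q : Q) :
    finrank ℚ (fixSub q) * orderOf q ≤ Nat.card Q := by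
  classical
  letI : Fintype (Q ⧸ Subgroup.zpowers q) := Fintype.ofFinite _
  let ev : fixSub q →ₗ[ℚ] (Q ⧸ Subgroup.zpowers q → ℚ) :=
    { toFun := fun f c => (f : Q → ℚ) c.out
      map_add' := fun f g => rfl
      map_smul' := fun a f => rfl }
  have hinj : Function.Injective ev := by
    rw [← LinearMap.ker_eq_bot, LinearMap.ker_eq_bot']
    intro f hf
    apply Subtype.ext
    funext x
    obtain ⟨h, hh⟩ := QuotientGroup.mk_out_eq_mul (Subgroup.zpowers q) x
    have h1 : (f : Q → ℚ) ((QuotientGroup.mk x : Q ⧸ Subgroup.zpowers q).out) = 0 :=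
      congrFun hf (QuotientGroup.mk x)
    rw [hh, fixSub_zpowers q f f.2 h h.2 x] at h1
    exact h1
  have h1 : finrank ℚ (fixSub q) ≤ finrank ℚ (Q ⧸ Subgroup.zpowers q → ℚ) :=
    LinearMap.finrank_le_finrank_of_injective hinj
  rw [Module.finrank_fintype_fun_eq_card, ← Nat.card_eq_fintype_card] at h1
  have h2 := Subgroup.card_eq_card_quotient_mul_card_subgroup (Subgroup.zpowers q)
  rw [Nat.card_zpowers] at h2
  rw [h2]
  exact Nat.mul_le_mul_right _ h1

end Fix

end Vale.Agent.H52.Deriv
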