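import Mathlib
import Vale.Agent.H52.Deriv

/-!
# The Euler-characteristic criterion for elements of infinite order

Let `G = ⟨x₁, …, xₙ | w₁ ^ e₁, …, wₘ ^ eₘ⟩` and let `π : G → Q` be a homomorphism onto a finite
group.  If `∑ i, 1 / (order of π (w i)) < n - 1 + 1 / |Q|`, then the kernel of `π` contains an
element of infinite order.
-/

namespace Vale.Agent.H52.Deriv

open Module

universe u

variable {n m : ℕ} {Q : Type u} [Group Q] [Finite Q]

theorem exists_not_isOfFinOrder_aux (rels : Set (FreeGroup (Fin n)))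
    (w : Fin m → FreeGroup (Fin n)) (e : Fin m → ℕ)
    (hrels : rels = Set.range fun i => w i ^ e i)
    (π : PresentedGroup rels →* Q) (hπ : Function.Surjective π)
    (h : ∑ i, (1 : ℚ) / (orderOf (π (PresentedGroup.mk rels (w i))) : ℚ) <
      (n : ℚ) - 1 + 1 / (Nat.card Q : ℚ)) :
    ∃ g : PresentedGroup rels, π g = 1 ∧ ¬ IsOfFinOrder g := by
  classical
  let _ : Fintype Q := Fintype.ofFinite Q
  set θ : FreeGroup (Fin n) →* Q := π.comp (PresentedGroup.mk rels) with hθ
  have hθrel : ∀ i, θ (w i ^ e i) = 1 := by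
    intro i
    show π (PresentedGroup.mk rels (w i ^ e i)) = 1
    rw [PresentedGroup.one_of_mem (hrels ▸ Set.mem_range_self i), map_one]
  have hθpow : ∀ i, θ (w i) ^ e i = 1 := fun i => by rw [← map_pow]; exact hθrel i
  -- the linear maps computing the derivation on the relators
  choose ℓ hℓ using fun i : Fin m => exists_linear θ (w i ^ e i)
  have hfix : ∀ i c, ℓ i c ∈ fixSub (θ (w i)) := by
    intro i c
    apply mem_fixSub_of_rho
    rw [← hℓ i c]
    exact rho_delta_pow θ (Phi θ c) (Phi_linear θ c) (w i) (e i) (hθpow i)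
  let L : (Fin n → Q → ℚ) →ₗ[ℚ] (∀ i : Fin m, fixSub (θ (w i))) :=
    LinearMap.pi fun i => (ℓ i).codRestrict (fixSub (θ (w i))) (hfix i)
  let ι : (Q → ℚ) →ₗ[ℚ] (Fin n → Q → ℚ) :=
    LinearMap.pi fun j => (rho (θ (FreeGroup.of j))).toLinearMap - LinearMap.id
  -- dimensions
  have hdom : finrank ℚ (Fin n → Q → ℚ) = n * Fintype.card Q := by
    rw [Module.finrank_pi_fintype]
    simp [Module.finrank_fintype_fun_eq_card]
  have hcod : finrank ℚ (∀ i : Fin m, fixSub (θ (w i))) = ∑ i, finrank ℚ (fixSub (θ (w i))) :=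
    Module.finrank_pi_fintype ℚ
  have hker : finrank ℚ (LinearMap.range L) + finrank ℚ (LinearMap.ker L) = n * Fintype.card Q := by
    rw [LinearMap.finrank_range_add_finrank_ker, hdom]
  have hrange : finrank ℚ (LinearMap.range L) ≤ ∑ i, finrank ℚ (fixSub (θ (w i))) := by
    rw [← hcod]
    exact Submodule.finrank_le _
  have hι : finrank ℚ (LinearMap.range ι) + 1 ≤ Fintype.card Q := by
    have h1 := LinearMap.finrank_range_add_finrank_ker ι
    rw [Module.finrank_fintype_fun_eq_card] at h1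
    have h2 : 0 < finrank ℚ (LinearMap.ker ι) := by
      rw [Module.finrank_pos_iff_exists_ne_zero]
      refine ⟨⟨fun _ => 1, ?_⟩, ?_⟩
      · rw [LinearMap.mem_ker]
        funext j
        show (rho (θ (FreeGroup.of j))) (fun _ => (1 : ℚ)) - (fun _ => (1 : ℚ)) = 0
        funext x
        simp [rho_apply]
      · intro h0
        have := congrArg (fun f : LinearMap.ker ι => (f : Q → ℚ) 1) h0
        simp at this
    omega
  -- arithmetic
  have hQpos : (0 : ℚ) < (Fintype.card Q : ℚ) := by exact_mod_cast Fintype.card_pos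
  have hcardQ : (Nat.card Q : ℚ) = (Fintype.card Q : ℚ) := by rw [Nat.card_eq_fintype_card]
  have hsum : (∑ i, (finrank ℚ (fixSub (θ (w i))) : ℚ)) <
      ((n : ℚ) - 1) * Fintype.card Q + 1 := by
    have h1 : ∀ i, (finrank ℚ (fixSub (θ (w i))) : ℚ) ≤
        (Fintype.card Q : ℚ) * (1 / (orderOf (θ (w i)) : ℚ)) := by
      intro i
      have h2 := finrank_fixSub_mul_le (θ (w i))
      rw [Nat.card_eq_fintype_card] at h2
      have hpos : (0 : ℚ) < (orderOf (θ (w i)) : ℚ) := by
        exact_mod_cast orderOf_pos (θ (w i))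
      rw [mul_one_div, le_div_iff₀ hpos]
      exact_mod_cast h2
    calc (∑ i, (finrank ℚ (fixSub (θ (w i))) : ℚ))
        ≤ ∑ i, (Fintype.card Q : ℚ) * (1 / (orderOf (θ (w i)) : ℚ)) :=
          Finset.sum_le_sum fun i _ => h1 i
      _ = (Fintype.card Q : ℚ) * ∑ i, (1 / (orderOf (θ (w i)) : ℚ)) := by
          rw [Finset.mul_sum]
      _ < (Fintype.card Q : ℚ) * ((n : ℚ) - 1 + 1 / (Fintype.card Q : ℚ)) := by
          apply mul_lt_mul_of_pos_left _ hQpos
          rw [← hcardQ]
          exact h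
      _ = ((n : ℚ) - 1) * Fintype.card Q + 1 := by
          field_simp
  have hlt : finrank ℚ (LinearMap.range ι) < finrank ℚ (LinearMap.ker L) := by
    have e1 : ((finrank ℚ (LinearMap.range L) : ℕ) : ℚ) + (finrank ℚ (LinearMap.ker L) : ℚ) =
        (n : ℚ) * Fintype.card Q := by exact_mod_cast hker
    have e2 : ((finrank ℚ (LinearMap.range L) : ℕ) : ℚ) ≤
        ∑ i, (finrank ℚ (fixSub (θ (w i))) : ℚ) := by exact_mod_cast hrange
    have e3 : ((finrank ℚ (LinearMap.range ι) : ℕ) : ℚ) + 1 ≤ (Fintype.card Q : ℚ) := by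
      exact_mod_cast hι
    have e4 : ((finrank ℚ (LinearMap.range ι) : ℕ) : ℚ) < (finrank ℚ (LinearMap.ker L) : ℚ) := by
      nlinarith
    exact_mod_cast e4
  -- a derivation that is not inner
  obtain ⟨c, hcL, hcι⟩ : ∃ c, c ∈ LinearMap.ker L ∧ c ∉ LinearMap.range ι := by
    by_contra hcon
    push Not at hcon
    have hle : LinearMap.ker L ≤ LinearMap.range ι := fun c hc => hcon c hc
    exact absurd (Submodule.finrank_mono hle) (not_le.mpr hlt)
  have hc0 : ∀ i, Phi θ c (w i ^ e i) 0 = 0 := by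
    intro i
    rw [hℓ i c]
    have := congrFun (LinearMap.mem_ker.mp hcL) i
    exact congrArg Subtype.val this
  have hkill : ∀ r ∈ rels, FreeGroup.lift (fun j => aff (θ (FreeGroup.of j)) (c j)) r = 1 := by
    intro r hr
    rw [hrels] at hr
    obtain ⟨i, rfl⟩ := hr
    apply AffineEquiv.ext
    intro v
    have := psi_apply θ (Phi θ c) (Phi_linear θ c) (w i ^ e i) v
    rw [hθrel i, rho_one, hc0 i, add_zero] at this
    exact this
  set Ψ : PresentedGroup rels →* ((Q → ℚ) ≃ᵃ[ℚ] (Q → ℚ)) := PresentedGroup.toGroup hkill with hΨ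
  have hΨof : ∀ j, Ψ (PresentedGroup.of j) = aff (θ (FreeGroup.of j)) (c j) :=
    fun j => PresentedGroup.toGroup.of hkill
  have hlin : ∀ g, (Ψ g).linear = rho (π g) := by
    have hh : (AffineEquiv.linearHom).comp Ψ = rhoHom.comp π := by
      apply PresentedGroup.ext
      intro j
      show (Ψ (PresentedGroup.of j)).linear = rho (π (PresentedGroup.of j))
      rw [hΨof, aff_linear]
      rfl
    exact fun g => DFunLike.congr_fun hh g
  have hδof : ∀ j, Ψ (PresentedGroup.of j) 0 = c j := by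
    intro j
    rw [hΨof, aff_apply, map_zero, add_zero]
  -- the derivation does not vanish on the kernel
  have hex : ∃ k, π k = 1 ∧ Ψ k 0 ≠ 0 := by
    by_contra hcon
    push Not at hcon
    apply hcι
    let s : Q → PresentedGroup rels := Function.surjInv hπ
    have hs : ∀ q, π (s q) = q := Function.surjInv_eq hπ
    let T : Q → ℚ := ∑ q, Ψ (s q) 0
    have key : ∀ g, T = (Fintype.card Q : ℚ) • Ψ g 0 + rho (π g) T := by
      intro g
      have h1 : ∀ q, Ψ (s (π g * q)) 0 = Ψ g 0 + rho (π g) (Ψ (s q) 0) := by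
        intro q
        have hk : π ((g * s q)⁻¹ * s (π g * q)) = 1 := by
          rw [map_mul, map_inv, map_mul, hs, hs, inv_mul_cancel]
        have h2 := delta_mul π Ψ hlin (g * s q) ((g * s q)⁻¹ * s (π g * q))
        rw [mul_inv_cancel_left, hcon _ hk, LinearEquiv.map_zero, add_zero] at h2
        rw [h2, delta_mul π Ψ hlin]
      calc T = ∑ q, Ψ (s (π g * q)) 0 :=
            (Equiv.sum_comp (Equiv.mulLeft (π g)) fun q => Ψ (s q) 0).symm
        _ = ∑ q, (Ψ g 0 + rho (π g) (Ψ (s q) 0)) := Finset.sum_congr rfl fun q _ => h1 q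
        _ = (Fintype.card Q : ℚ) • Ψ g 0 + rho (π g) T := by
            rw [Finset.sum_add_distrib, Finset.sum_const, Finset.card_univ, map_sum,
              Nat.cast_smul_eq_nsmul ℚ]
    refine ⟨(-(1 / (Fintype.card Q : ℚ))) • T, ?_⟩
    funext j
    show (rho (θ (FreeGroup.of j))) ((-(1 / (Fintype.card Q : ℚ))) • T) -
      (-(1 / (Fintype.card Q : ℚ))) • T = c j
    have hk := key (PresentedGroup.of j)
    rw [hδof] at hk
    have hθj : θ (FreeGroup.of j) = π (PresentedGroup.of j) := rfl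
    have hρT : rho (π (PresentedGroup.of j)) T = T - (Fintype.card Q : ℚ) • c j :=
      eq_sub_of_add_eq' hk.symm
    have hne : (Fintype.card Q : ℚ) ≠ 0 := ne_of_gt hQpos
    have hsc : -(-(1 / (Fintype.card Q : ℚ)) * (Fintype.card Q : ℚ)) = 1 := by
      field_simp
    rw [hθj, map_smul, hρT, smul_sub, sub_sub_cancel_left, smul_smul, ← neg_smul, hsc, one_smul]
  obtain ⟨k, hk1, hk0⟩ := hex
  refine ⟨k, hk1, fun hfin => hk0 ?_⟩
  obtain ⟨j, hjpos, hj⟩ := isOfFinOrder_iff_pow_eq_one.mp hfin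
  have h1 := delta_pow_of_ker π Ψ hlin k hk1 j
  rw [hj, delta_one] at h1
  have h2 : (j : ℚ) • Ψ k 0 = 0 := by
    rw [Nat.cast_smul_eq_nsmul ℚ]
    exact h1.symm
  rcases smul_eq_zero.mp h2 with h3 | h3
  · exact absurd h3 (by exact_mod_cast hjpos.ne')
  · exact h3

end Vale.Agent.H52.Deriv

namespace Vale.Agent.H52.Deriv

universe u

theorem exists_not_isOfFinOrder {n m : ℕ} {Q : Type u} [Group Q] [Finite Q]
    (w : Fin m → FreeGroup (Fin n)) (e : Fin m → ℕ)
    (π : PresentedGroup (Set.range fun i => w i ^ e i) →* Q) (hπ : Function.Surjective π)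
    (h : ∑ i, (1 : ℚ) / (orderOf (π (PresentedGroup.mk _ (w i))) : ℚ) <
      (n : ℚ) - 1 + 1 / (Nat.card Q : ℚ)) :
    ∃ g : PresentedGroup (Set.range fun i => w i ^ e i), π g = 1 ∧ ¬ IsOfFinOrder g :=
  exists_not_isOfFinOrder_aux _ w e rfl π hπ h

end Vale.Agent.H52.Deriv
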