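import Mathlib
import Vale.Agent.H52.DerivMain

/-!
# Consequences of the Euler-characteristic criterion

* the criterion for a not necessarily surjective homomorphism to a finite group;
* an explicit family: `n` generators and at most `e (n - 1)` relators that are `e`-th powers of
  words mapping to a generator of `ℤ/e` under some homomorphism never define a periodic group.
-/

namespace Vale.Agent.H52.Deriv

open Module

universe u

/-- The criterion without surjectivity. -/
theorem exists_not_isOfFinOrder' {n m : ℕ} {Q : Type u} [Group Q] [Finite Q]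
    (w : Fin m → FreeGroup (Fin n)) (e : Fin m → ℕ)
    (π : PresentedGroup (Set.range fun i => w i ^ e i) →* Q)
    (h : ∑ i, (1 : ℚ) / (orderOf (π (PresentedGroup.mk _ (w i))) : ℚ) <
      (n : ℚ) - 1 + 1 / (Nat.card Q : ℚ)) :
    ∃ g : PresentedGroup (Set.range fun i => w i ^ e i), π g = 1 ∧ ¬ IsOfFinOrder g := by
  have hsurj : Function.Surjective π.rangeRestrict := π.rangeRestrict_surjective
  have hord : ∀ g, orderOf (π.rangeRestrict g) = orderOf (π g) := by
    intro g
    rw [← Subgroup.orderOf_coe]
    rfl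
  have hcard : (1 : ℚ) / (Nat.card Q : ℚ) ≤ 1 / (Nat.card π.range : ℚ) := by
    have h1 : Nat.card π.range ≤ Nat.card Q := Subgroup.card_le_card_group _
    have h2 : 0 < Nat.card π.range := Nat.card_pos
    apply one_div_le_one_div_of_le
    · exact_mod_cast h2
    · exact_mod_cast h1
  have h' : ∑ i, (1 : ℚ) / (orderOf (π.rangeRestrict (PresentedGroup.mk _ (w i))) : ℚ) <
      (n : ℚ) - 1 + 1 / (Nat.card π.range : ℚ) := by
    simp only [hord]
    linarith
  obtain ⟨g, hg1, hg2⟩ := exists_not_isOfFinOrder w e π.rangeRestrict hsurj h'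
  refine ⟨g, ?_, hg2⟩
  have := congrArg Subtype.val hg1
  exact this

/-- The abelianisation modulo `e` on generators. -/
def abGen (n e : ℕ) (j : Fin n) : Multiplicative (Fin n → ZMod e) :=
  Multiplicative.ofAdd (Pi.single j 1)

theorem abGen_pow (n e : ℕ) (v : Multiplicative (Fin n → ZMod e)) : v ^ e = 1 := by
  have : e • (Multiplicative.toAdd v) = 0 := by
    funext j
    simp
  exact this

/-- Every homomorphism from the free group to `ℤ/e` factors through the abelianisation mod `e`. -/
theorem exists_factor (n e : ℕ) (φ : FreeGroup (Fin n) →* Multiplicative (ZMod e)) :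
    ∃ ψ : Multiplicative (Fin n → ZMod e) →* Multiplicative (ZMod e),
      ψ.comp (FreeGroup.lift (abGen n e)) = φ := by
  let ψa : (Fin n → ZMod e) →+ ZMod e :=
    { toFun := fun v => ∑ j, v j * Multiplicative.toAdd (φ (FreeGroup.of j))
      map_zero' := by simp
      map_add' := by
        intro u v
        simp [add_mul, Finset.sum_add_distrib] }
  refine ⟨AddMonoidHom.toMultiplicative ψa, ?_⟩
  apply FreeGroup.ext_hom
  intro j
  rw [MonoidHom.comp_apply, FreeGroup.lift_apply_of]
  show Multiplicative.ofAdd (ψa (Pi.single j 1)) = φ (FreeGroup.of j)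
  have : ψa (Pi.single j 1) = Multiplicative.toAdd (φ (FreeGroup.of j)) := by
    show ∑ k, (Pi.single j (1 : ZMod e) : Fin n → ZMod e) k *
      Multiplicative.toAdd (φ (FreeGroup.of k)) = _
    rw [Finset.sum_eq_single j]
    · simp
    · intro k _ hk
      simp [Pi.single_eq_of_ne hk]
    · intro hj
      exact absurd (Finset.mem_univ j) hj
  rw [this]
  rfl

/-- Explicit family: few `e`-th power relators with primitive roots modulo `e`. -/
theorem exists_not_isOfFinOrder_of_power_relators (e n m : ℕ) (he : 0 < e) (hn : 0 < n)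
    (w : Fin m → FreeGroup (Fin n))
    (hw : ∀ i, ∃ φ : FreeGroup (Fin n) →* Multiplicative (ZMod e), orderOf (φ (w i)) = e)
    (hm : m ≤ e * (n - 1)) :
    ∃ g : PresentedGroup (Set.range fun i => w i ^ e), ¬ IsOfFinOrder g := by
  have : NeZero e := ⟨he.ne'⟩
  have hkill : ∀ r ∈ (Set.range fun i => w i ^ e), FreeGroup.lift (abGen n e) r = 1 := by
    rintro r ⟨i, rfl⟩
    rw [map_pow]
    exact abGen_pow n e _
  let π : PresentedGroup (Set.range fun i => w i ^ e) →* Multiplicative (Fin n → ZMod e) :=
    PresentedGroup.toGroup hkill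
  have hπmk : ∀ x, π (PresentedGroup.mk _ x) = FreeGroup.lift (abGen n e) x := fun x => rfl
  have hord : ∀ i, orderOf (π (PresentedGroup.mk _ (w i))) = e := by
    intro i
    obtain ⟨φ, hφ⟩ := hw i
    obtain ⟨ψ, hψ⟩ := exists_factor n e φ
    rw [hπmk]
    apply Nat.dvd_antisymm
    · exact orderOf_dvd_of_pow_eq_one (abGen_pow n e _)
    · have h1 : orderOf (ψ (FreeGroup.lift (abGen n e) (w i))) ∣
          orderOf (FreeGroup.lift (abGen n e) (w i)) := orderOf_map_dvd ψ _
      have h2 : ψ (FreeGroup.lift (abGen n e) (w i)) = φ (w i) := by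
        rw [← hψ]; rfl
      rw [h2, hφ] at h1
      exact h1
  have hcard : 0 < Nat.card (Multiplicative (Fin n → ZMod e)) := Nat.card_pos
  have h : ∑ i, (1 : ℚ) / (orderOf (π (PresentedGroup.mk _ (w i))) : ℚ) <
      (n : ℚ) - 1 + 1 / (Nat.card (Multiplicative (Fin n → ZMod e)) : ℚ) := by
    simp only [hord]
    rw [Finset.sum_const, Finset.card_univ, Fintype.card_fin, nsmul_eq_mul]
    have he' : (0 : ℚ) < e := by exact_mod_cast he
    have h1 : (m : ℚ) ≤ (e : ℚ) * ((n : ℚ) - 1) := by
      have : ((e * (n - 1) : ℕ) : ℚ) = (e : ℚ) * ((n : ℚ) - 1) := by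
        rw [Nat.cast_mul, Nat.cast_sub hn, Nat.cast_one]
      rw [← this]
      exact_mod_cast hm
    have h2 : (m : ℚ) * (1 / (e : ℚ)) ≤ (n : ℚ) - 1 := by
      rw [mul_one_div, div_le_iff₀ he']
      linarith
    have h3 : (0 : ℚ) < 1 / (Nat.card (Multiplicative (Fin n → ZMod e)) : ℚ) := by
      apply one_div_pos.mpr
      exact_mod_cast hcard
    linarith
  obtain ⟨g, -, hg⟩ := exists_not_isOfFinOrder' w (fun _ => e) π h
  exact ⟨g, hg⟩

end Vale.Agent.H52.Deriv
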